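import Vale.Agent.P245.H23.Top

/-!
P245: functions whose high superlevel sets are convex (helper23): the entropy inequality.
-/

open MeasureTheory Set Filter Topology
open scoped ENNReal ContDiff

namespace Vale.Agent.P245.H23

/-- integral of the auxiliary function of one half -/
theorem half_int {n : ℕ} {μ : Measure (EuclideanSpace ℝ (Fin n))} [IsProbabilityMeasure μ]
    {g : EuclideanSpace ℝ (Fin n) → ℝ} {c : ℝ}
    (hi1 : Integrable (fun x => g x ^ 2 * Real.log (g x ^ 2)) μ)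
    (hi2 : Integrable (fun x => g x ^ 2) μ) (hle : ∫ x, g x ^ 2 ∂μ ≤ c) :
    ∫ x, (g x ^ 2 * Real.log (g x ^ 2) - g x ^ 2 * Real.log c - g x ^ 2 + c + 3 * g x ^ 2) ∂μ ≤
      Entropy μ (fun x => g x ^ 2) + 2 * (∫ x, g x ^ 2 ∂μ) + c := by
  have hm0 : 0 ≤ ∫ x, g x ^ 2 ∂μ := integral_nonneg fun x => sq_nonneg _
  have j1 : Integrable (fun x => g x ^ 2 * Real.log c) μ := hi2.mul_const _
  have j2 : Integrable (fun x => g x ^ 2 * Real.log (g x ^ 2) - g x ^ 2 * Real.log c) μ := hi1.sub j1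
  have j3 : Integrable (fun x => g x ^ 2 * Real.log (g x ^ 2) - g x ^ 2 * Real.log c - g x ^ 2) μ :=
    j2.sub hi2
  have j4 : Integrable (fun x => g x ^ 2 * Real.log (g x ^ 2) - g x ^ 2 * Real.log c - g x ^ 2 + c) μ :=
    j3.add (integrable_const _)
  rw [integral_add j4 (hi2.const_mul 3), integral_add j3 (integrable_const c), integral_sub j2 hi2,
    integral_sub hi1 j1, integral_mul_const, integral_const_mul]
  unfold Entropy
  set k := ∫ x, g x ^ 2 ∂μ with hk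
  have h1 : k * Real.log k ≤ k * Real.log c := by
    rcases hm0.eq_or_lt with h | h
    · rw [← h]; simp
    · exact mul_le_mul_of_nonneg_left (Real.log_le_log h hle) h.le
  simp
  linarith

theorem int_sq_sub {n : ℕ} {μ : Measure (EuclideanSpace ℝ (Fin n))} [IsProbabilityMeasure μ]
    {φ : EuclideanSpace ℝ (Fin n) → ℝ} (h1 : Integrable φ μ) (h2 : Integrable (fun x => φ x ^ 2) μ)
    (b : ℝ) : ∫ x, (φ x - b) ^ 2 ∂μ = (∫ x, φ x ^ 2 ∂μ) - 2 * b * (∫ x, φ x ∂μ) + b ^ 2 := by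
  have i0 : Integrable (fun x => 2 * b * φ x) μ := h1.const_mul _
  have i1 : Integrable (fun x => φ x ^ 2 - 2 * b * φ x) μ := h2.sub i0
  have e : ∀ x, (φ x - b) ^ 2 = φ x ^ 2 - 2 * b * φ x + b ^ 2 := fun x => by ring
  have e1 : ∫ x, (φ x - b) ^ 2 ∂μ = ∫ x, (φ x ^ 2 - 2 * b * φ x + b ^ 2) ∂μ := by
    apply integral_congr_ae
    exact Eventually.of_forall e
  rw [e1, integral_add i1 (integrable_const _), integral_sub h2 i0, integral_const_mul]
  simp

/-- the arithmetic of the last step -/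
theorem numbers {Ent A J1 J2 E1 E2 M1 M2 c V L P Q I B r ε : ℝ} (hr : 0 ≤ r) (hP : 0 ≤ P)
    (hQ : 0 ≤ Q) (hI : 0 ≤ I) (hV0 : 0 ≤ V) (hVP : V ≤ P * I)
    (hL : L = 8 * (1 + Real.log 4 + r / 2)) (main : Ent ≤ L * A + (2 * J1 + 2 * J2))
    (hA : A ≤ 2 * V) (hJ1 : J1 ≤ E1 + 2 * M1 + c) (hJ2 : J2 ≤ E2 + 2 * M2 + c)
    (hM1 : M1 ≤ V) (hM2 : M2 ≤ V) (hE1 : E1 ≤ Q * (B ^ 2 * I)) (hE2 : E2 ≤ Q * (B ^ 2 * I))
    (hc : c ≤ V + ε / 4) : Ent ≤ (51 + 4 * B ^ 2) * ((1 + r) * P + Q) * I + ε := by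
  have hlog4 : Real.log 4 ≤ 1.4 := by
    have h1 : Real.log 4 = 2 * Real.log 2 := by
      rw [show (4 : ℝ) = 2 ^ 2 by norm_num, Real.log_pow]; norm_num
    have := Real.log_two_lt_d9
    linarith
  have hlog40 : 0 ≤ Real.log 4 := Real.log_nonneg (by norm_num)
  have hL0 : 0 ≤ L := by rw [hL]; positivity
  have s1 : L * A ≤ L * (2 * V) := mul_le_mul_of_nonneg_left hA hL0
  have s2 : L * (2 * V) ≤ (38.4 + 8 * r) * V := by
    have h1 : L * (2 * V) = 16 * (1 + Real.log 4 + r / 2) * V := by rw [hL]; ring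
    rw [h1]
    apply mul_le_mul_of_nonneg_right _ hV0
    linarith
  have s3 : (38.4 + 8 * r) * V + 12 * V ≤ 51 * (1 + r) * (P * I) := by
    have h1 : (38.4 + 8 * r) * V + 12 * V ≤ 51 * (1 + r) * V := by
      nlinarith [mul_nonneg hr hV0]
    exact h1.trans (mul_le_mul_of_nonneg_left hVP (by positivity))
  have s4 : 51 * (1 + r) * (P * I) + 4 * (Q * (B ^ 2 * I)) ≤
      (51 + 4 * B ^ 2) * ((1 + r) * P + Q) * I := by
    have h1 : 0 ≤ B ^ 2 * ((1 + r) * P * I) := by positivity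
    have h2 : 0 ≤ Q * I := by positivity
    have e : (51 + 4 * B ^ 2) * ((1 + r) * P + Q) * I = 51 * (1 + r) * (P * I) +
        4 * (Q * (B ^ 2 * I)) + (51 * (Q * I) + 4 * (B ^ 2 * ((1 + r) * P * I))) := by ring
    rw [e]; linarith
  linarith

/-- the integrated inequality -/
theorem est {n : ℕ} {μ : Measure (EuclideanSpace ℝ (Fin n))} [IsProbabilityMeasure μ]
    {f g1 g2 : EuclideanSpace ℝ (Fin n) → ℝ} {m c T : ℝ} (hm : 0 < m) (hc : 0 < c)
    (hcm : c ≤ 2 * m) (hT : √m ≤ T)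
    (h1 : ∀ x, 4 * T ≤ f x → g1 x = f x - T) (h2 : ∀ x, 4 * T ≤ -f x → g2 x = -f x - T)
    (k1 : Integrable (fun x => g1 x ^ 2 * Real.log (g1 x ^ 2)) μ)
    (k2 : Integrable (fun x => g2 x ^ 2 * Real.log (g2 x ^ 2)) μ)
    (k3 : Integrable (fun x => g1 x ^ 2) μ) (k4 : Integrable (fun x => g2 x ^ 2) μ)
    (k5 : Integrable (fun x => f x ^ 2 * Real.log (f x ^ 2)) μ)
    (hi2 : Integrable (fun x => f x ^ 2) μ) (k8 : Integrable (fun x => (|f x| - √m) ^ 2) μ)
    (hmm : ∫ x, f x ^ 2 ∂μ = m) :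
    Entropy μ (fun x => f x ^ 2) ≤ 8 * (1 + Real.log (4 * T / √m)) * (∫ x, (|f x| - √m) ^ 2 ∂μ) +
      (2 * (∫ x, (g1 x ^ 2 * Real.log (g1 x ^ 2) - g1 x ^ 2 * Real.log c - g1 x ^ 2 + c
        + 3 * g1 x ^ 2) ∂μ) +
      2 * ∫ x, (g2 x ^ 2 * Real.log (g2 x ^ 2) - g2 x ^ 2 * Real.log c - g2 x ^ 2 + c
        + 3 * g2 x ^ 2) ∂μ) := by
  have iH1 : Integrable (fun x => g1 x ^ 2 * Real.log (g1 x ^ 2) - g1 x ^ 2 * Real.log c
      - g1 x ^ 2 + c + 3 * g1 x ^ 2) μ :=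
    (((k1.sub (k3.mul_const _)).sub k3).add (integrable_const _)).add (k3.const_mul 3)
  have iH2 : Integrable (fun x => g2 x ^ 2 * Real.log (g2 x ^ 2) - g2 x ^ 2 * Real.log c
      - g2 x ^ 2 + c + 3 * g2 x ^ 2) μ :=
    (((k2.sub (k4.mul_const _)).sub k4).add (integrable_const _)).add (k4.const_mul 3)
  have nH : ∀ u : ℝ, 0 ≤ u ^ 2 * Real.log (u ^ 2) - u ^ 2 * Real.log c - u ^ 2 + c + 3 * u ^ 2 :=
    fun u => by
      have h3 := psi_nonneg (sq_nonneg u) hc
      have h4 : 0 ≤ 3 * u ^ 2 := by positivity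
      linarith
  generalize hL : 8 * (1 + Real.log (4 * T / √m)) = L
  have pw : ∀ x, f x ^ 2 * Real.log (f x ^ 2) - f x ^ 2 * Real.log m - f x ^ 2 + m ≤
      L * (|f x| - √m) ^ 2 +
      (2 * (g1 x ^ 2 * Real.log (g1 x ^ 2) - g1 x ^ 2 * Real.log c - g1 x ^ 2 + c + 3 * g1 x ^ 2) +
      2 * (g2 x ^ 2 * Real.log (g2 x ^ 2) - g2 x ^ 2 * Real.log c - g2 x ^ 2 + c
        + 3 * g2 x ^ 2)) := by
    intro x
    rcases le_total 0 (f x) with h | h
    · have h5 := pointwise (g := g1 x) hm hc hcm hT h (h1 x)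
      rw [abs_of_nonneg h]
      rw [hL] at h5
      have h6 := nH (g2 x)
      linarith
    · have h' : 0 ≤ -f x := by linarith
      have h5 := pointwise (g := g2 x) hm hc hcm hT h' (h2 x)
      rw [abs_of_nonpos h]
      rw [hL, neg_sq] at h5
      have h6 := nH (g1 x)
      linarith
  have i1 : Integrable (fun x => f x ^ 2 * Real.log m) μ := hi2.mul_const _
  have i2 : Integrable (fun x => f x ^ 2 * Real.log (f x ^ 2) - f x ^ 2 * Real.log m) μ := k5.sub i1
  have i3 : Integrable (fun x => f x ^ 2 * Real.log (f x ^ 2) - f x ^ 2 * Real.log m - f x ^ 2) μ :=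
    i2.sub hi2
  have i4 : Integrable (fun x =>
      2 * (g1 x ^ 2 * Real.log (g1 x ^ 2) - g1 x ^ 2 * Real.log c - g1 x ^ 2 + c + 3 * g1 x ^ 2) +
      2 * (g2 x ^ 2 * Real.log (g2 x ^ 2) - g2 x ^ 2 * Real.log c - g2 x ^ 2 + c
        + 3 * g2 x ^ 2)) μ := (iH1.const_mul 2).add (iH2.const_mul 2)
  have main : ∫ x, (f x ^ 2 * Real.log (f x ^ 2) - f x ^ 2 * Real.log m - f x ^ 2 + m) ∂μ ≤
      ∫ x, (L * (|f x| - √m) ^ 2 +
      (2 * (g1 x ^ 2 * Real.log (g1 x ^ 2) - g1 x ^ 2 * Real.log c - g1 x ^ 2 + c + 3 * g1 x ^ 2) +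
      2 * (g2 x ^ 2 * Real.log (g2 x ^ 2) - g2 x ^ 2 * Real.log c - g2 x ^ 2 + c
        + 3 * g2 x ^ 2))) ∂μ :=
    integral_mono (i3.add (integrable_const m)) ((k8.const_mul L).add i4) pw
  have el : ∫ x, (f x ^ 2 * Real.log (f x ^ 2) - f x ^ 2 * Real.log m - f x ^ 2 + m) ∂μ =
      Entropy μ (fun x => f x ^ 2) := by
    rw [integral_add i3 (integrable_const m), integral_sub i2 hi2, integral_sub k5 i1,
      integral_mul_const]
    unfold Entropy
    rw [hmm]
    simp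
  rw [integral_add (k8.const_mul L) i4, integral_const_mul,
      integral_add (iH1.const_mul 2) (iH2.const_mul 2), integral_const_mul, integral_const_mul] at main
  rw [← el]
  exact main

/-- entropy inequality for functions whose high superlevel sets are convex -/
theorem top_convex : ∃ c : ℝ, 0 < c ∧ ∀ (n : ℕ) (μ : Measure (EuclideanSpace ℝ (Fin n)))
    [IsProbabilityMeasure μ] (P Q : ℝ), 0 ≤ P → 0 ≤ Q →
    (∀ f : EuclideanSpace ℝ (Fin n) → ℝ, ContDiff ℝ ∞ f → HasCompactSupport f →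
      (∫ x, f x ^ 2 ∂μ) - (∫ x, f x ∂μ) ^ 2 ≤ P * ∫ x, ‖gradient f x‖ ^ 2 ∂μ) →
    (∀ f : EuclideanSpace ℝ (Fin n) → ℝ, ContDiff ℝ ∞ f → HasCompactSupport f →
      (∀ x, 0 ≤ f x) → QuasiconcaveOn ℝ univ f →
      Entropy μ (fun x => f x ^ 2) ≤ Q * ∫ x, ‖gradient f x‖ ^ 2 ∂μ) →
    ∀ R : ℝ, 1 ≤ R → ∀ f : EuclideanSpace ℝ (Fin n) → ℝ, ContDiff ℝ ∞ f → HasCompactSupport f →
    (∀ t : ℝ, 0 < t → R * ∫ y, f y ^ 2 ∂μ ≤ t ^ 2 →
      Convex ℝ {x | t ≤ f x} ∧ Convex ℝ {x | f x ≤ -t}) →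
    Entropy μ (fun x => f x ^ 2) ≤
      c * ((1 + Real.log R) * P + Q) * ∫ x, ‖gradient f x‖ ^ 2 ∂μ := by
  obtain ⟨B, hB1, hB⟩ := chi_deriv_bdd
  refine ⟨51 + 4 * B ^ 2, by positivity, ?_⟩
  intro n μ _ P Q hP0 hQ0 hP hQ R hR f hf hfc hconv
  have hcf : Continuous f := hf.continuous
  obtain ⟨Bd, hBd⟩ := hfc.exists_bound_of_continuous hcf
  have hint : ∀ φ : ℝ → ℝ, Continuous φ → Integrable (fun x => φ (f x)) μ := by
    intro φ hφ
    obtain ⟨D, hD⟩ := (isCompact_Icc (a := -Bd) (b := Bd)).exists_bound_of_continuousOn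
      (f := φ) hφ.continuousOn
    refine Integrable.of_bound (hφ.comp hcf).aestronglyMeasurable D (ae_of_all _ fun x => ?_)
    exact hD _ (abs_le.1 (by simpa using hBd x))
  have hlogR : 0 ≤ Real.log R := Real.log_nonneg hR
  set I : ℝ := ∫ x, ‖gradient f x‖ ^ 2 ∂μ with hI
  have hI0 : 0 ≤ I := integral_nonneg fun x => sq_nonneg _
  set m : ℝ := ∫ x, f x ^ 2 ∂μ with hm
  have hm0 : 0 ≤ m := integral_nonneg fun x => sq_nonneg _
  have hi2 : Integrable (fun x => f x ^ 2) μ := hint (fun u => u ^ 2) (by fun_prop)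
  rcases hm0.eq_or_lt with h0 | hmpos
  · -- `f = 0` almost everywhere
    have hz : (fun x => f x ^ 2) =ᵐ[μ] 0 :=
      (integral_eq_zero_iff_of_nonneg (fun x => sq_nonneg _) hi2).1 h0.symm
    have h1 : Entropy μ (fun x => f x ^ 2) = 0 := by
      unfold Entropy
      rw [← hm, ← h0]
      have h2 : ∫ x, f x ^ 2 * Real.log (f x ^ 2) ∂μ = 0 := by
        rw [← integral_zero (EuclideanSpace ℝ (Fin n)) ℝ (μ := μ)]
        apply integral_congr_ae
        filter_upwards [hz] with x hx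
        have hx' : f x ^ 2 = 0 := hx
        rw [hx']; simp
      rw [h2]; simp
    rw [h1]; positivity
  set σ := √m with hσ
  have hσp : 0 < σ := Real.sqrt_pos.2 hmpos
  have hσ2 : σ ^ 2 = m := Real.sq_sqrt hm0
  have hRp : 0 < R := lt_of_lt_of_le one_pos hR
  have hsR : 1 ≤ √R := Real.one_le_sqrt.2 hR
  have hsR2 : √R ^ 2 = R := Real.sq_sqrt hRp.le
  set T := √R * σ with hTdef
  have hTσ : σ ≤ T := by rw [hTdef]; nlinarith
  have hT0 : 0 < T := lt_of_lt_of_le hσp hTσ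
  have hTt : ∀ t, T ≤ t → 0 < t ∧ R * m ≤ t ^ 2 := by
    intro t ht
    refine ⟨lt_of_lt_of_le hT0 ht, ?_⟩
    have h1 : T ^ 2 ≤ t ^ 2 := pow_le_pow_left₀ hT0.le ht 2
    rw [hTdef, mul_pow, hsR2, hσ2] at h1
    exact h1
  -- the two halves
  obtain ⟨a1, a2, a3, a4, a5, a6, a7⟩ := half hf hfc hT0
    (fun t ht => (hconv t (hTt t ht).1 (hTt t ht).2).1) hB
  have hfn : ContDiff ℝ ∞ (fun x => -f x) := hf.neg
  have hfcn : HasCompactSupport (fun x => -f x) := hfc.neg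
  obtain ⟨b1, b2, b3, b4, b5, b6, b7⟩ := half hfn hfcn hT0
    (fun t ht => by
      have h1 := (hconv t (hTt t ht).1 (hTt t ht).2).2
      have e : {x | t ≤ -f x} = {x | f x ≤ -t} := by
        ext x
        constructor
        · intro h
          have h' : t ≤ -f x := h
          change f x ≤ -t
          linarith
        · intro h
          have h' : f x ≤ -t := h
          change t ≤ -f x
          linarith
      rw [e]; exact h1) hB
  set g1 : EuclideanSpace ℝ (Fin n) → ℝ := fun x => Th T (f x) with hg1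
  set g2 : EuclideanSpace ℝ (Fin n) → ℝ := fun x => Th T (-f x) with hg2
  have hThc : Continuous (Th T) := by
    unfold Th
    exact continuous_const.mul (chi_smooth.continuous.comp
      ((continuous_id.sub continuous_const).div_const _))
  -- integrability
  have cl : Continuous (fun u : ℝ => u * Real.log u) := Real.continuous_mul_log
  have k1 : Integrable (fun x => g1 x ^ 2 * Real.log (g1 x ^ 2)) μ :=
    hint (fun u => Th T u ^ 2 * Real.log (Th T u ^ 2)) (cl.comp (hThc.pow 2))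
  have k2 : Integrable (fun x => g2 x ^ 2 * Real.log (g2 x ^ 2)) μ :=
    hint (fun u => Th T (-u) ^ 2 * Real.log (Th T (-u) ^ 2))
      (cl.comp ((hThc.comp continuous_neg).pow 2))
  have k3 : Integrable (fun x => g1 x ^ 2) μ := hint (fun u => Th T u ^ 2) (hThc.pow 2)
  have k4 : Integrable (fun x => g2 x ^ 2) μ :=
    hint (fun u => Th T (-u) ^ 2) ((hThc.comp continuous_neg).pow 2)
  have k5 : Integrable (fun x => f x ^ 2 * Real.log (f x ^ 2)) μ :=
    hint (fun u => u ^ 2 * Real.log (u ^ 2)) (cl.comp (continuous_pow 2))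
  have k6 : Integrable (fun x => |f x|) μ := hint (fun u => |u|) continuous_abs
  have k7 : Integrable f μ := hint (fun u => u) continuous_id
  have k6s : Integrable (fun x => |f x| ^ 2) μ := hint (fun u => |u| ^ 2) (continuous_abs.pow 2)
  have k6e : ∫ x, |f x| ^ 2 ∂μ = m := by
    rw [hm]
    apply integral_congr_ae
    exact Eventually.of_forall fun x => sq_abs (f x)
  -- variances
  set e := ∫ x, f x ∂μ with he
  set b := ∫ x, |f x| ∂μ with hb
  have hb0 : 0 ≤ b := integral_nonneg fun x => abs_nonneg _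
  have heb : |e| ≤ b := abs_integral_le_integral_abs
  have hbm : b ^ 2 ≤ m := by
    have h1 : 0 ≤ ∫ x, (|f x| - b) ^ 2 ∂μ := integral_nonneg fun x => sq_nonneg _
    rw [int_sq_sub k6 k6s b, k6e, ← hb] at h1
    nlinarith
  have hbσ : b ≤ σ := by
    rw [hσ]; exact Real.le_sqrt_of_sq_le hbm
  set V := m - e ^ 2 with hV
  have he2 : e ^ 2 ≤ b ^ 2 := by
    rw [← sq_abs e]; exact pow_le_pow_left₀ (abs_nonneg _) heb 2
  have hV0 : 0 ≤ V := by rw [hV]; linarith
  have hVm : V ≤ m := by rw [hV]; linarith [sq_nonneg e]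
  have hVP : V ≤ P * I := hP f hf hfc
  have hvar1 : ∫ x, (|f x| - σ) ^ 2 ∂μ ≤ 2 * V := by
    rw [int_sq_sub k6 k6s σ, k6e, ← hb, hV, hσ2]
    nlinarith
  have k8 : Integrable (fun x => (|f x| - σ) ^ 2) μ :=
    hint (fun u => (|u| - σ) ^ 2) ((continuous_abs.sub continuous_const).pow 2)
  have k9 : Integrable (fun x => (f x - e) ^ 2) μ :=
    hint (fun u => (u - e) ^ 2) ((continuous_id.sub continuous_const).pow 2)
  have hvar2 : ∫ x, (f x - e) ^ 2 ∂μ = V := by
    rw [int_sq_sub k7 hi2 e, ← he, ← hm, hV]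
    ring
  have heT : |e| ≤ T := heb.trans (hbσ.trans hTσ)
  have hm1 : ∫ x, g1 x ^ 2 ∂μ ≤ V := by
    rw [← hvar2]
    apply integral_mono k3 k9
    intro x
    change g1 x ^ 2 ≤ (f x - e) ^ 2
    rw [← sq_abs (f x - e)]
    apply pow_le_pow_left₀ (a3 x)
    refine (a6 x).trans (max_le ?_ (abs_nonneg _))
    have h1 := (abs_le.1 heT).2
    have h2 := le_abs_self (f x - e)
    linarith
  have hm2 : ∫ x, g2 x ^ 2 ∂μ ≤ V := by
    rw [← hvar2]
    apply integral_mono k4 k9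
    intro x
    change g2 x ^ 2 ≤ (f x - e) ^ 2
    rw [← sq_abs (f x - e)]
    apply pow_le_pow_left₀ (b3 x)
    refine (b6 x).trans (max_le ?_ (abs_nonneg _))
    have h1 := (abs_le.1 heT).1
    have h2 := neg_le_abs (f x - e)
    linarith
  -- entropies of the halves
  have hgi : Integrable (fun x => ‖gradient f x‖ ^ 2) μ := by
    have h1 : Continuous (fderiv ℝ f) := hf.continuous_fderiv (by simp)
    have e2 : ∀ x, ‖gradient f x‖ ^ 2 = ‖fderiv ℝ f x‖ ^ 2 := fun x => by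
      unfold gradient; simp
    simp only [e2]
    obtain ⟨D, hD⟩ := (hfc.fderiv (𝕜 := ℝ)).exists_bound_of_continuous h1
    refine Integrable.of_bound (h1.norm.pow 2).aestronglyMeasurable (D ^ 2) (ae_of_all _ fun x => ?_)
    rw [Real.norm_eq_abs, abs_of_nonneg (sq_nonneg _)]
    exact pow_le_pow_left₀ (norm_nonneg _) (hD x) 2
  have gradint : ∀ g : EuclideanSpace ℝ (Fin n) → ℝ, ContDiff ℝ ∞ g → HasCompactSupport g →
      Integrable (fun x => ‖gradient g x‖ ^ 2) μ := by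
    intro g hg hgc
    have h1 : Continuous (fderiv ℝ g) := hg.continuous_fderiv (by simp)
    have e2 : ∀ x, ‖gradient g x‖ ^ 2 = ‖fderiv ℝ g x‖ ^ 2 := fun x => by
      unfold gradient; simp
    simp only [e2]
    obtain ⟨D, hD⟩ := (hgc.fderiv (𝕜 := ℝ)).exists_bound_of_continuous h1
    refine Integrable.of_bound (h1.norm.pow 2).aestronglyMeasurable (D ^ 2) (ae_of_all _ fun x => ?_)
    rw [Real.norm_eq_abs, abs_of_nonneg (sq_nonneg _)]
    exact pow_le_pow_left₀ (norm_nonneg _) (hD x) 2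
  have E1 : Entropy μ (fun x => g1 x ^ 2) ≤ Q * (B ^ 2 * I) := by
    refine (hQ g1 a1 a2 a3 a4).trans (mul_le_mul_of_nonneg_left ?_ hQ0)
    rw [hI, ← integral_const_mul]
    exact integral_mono (gradint g1 a1 a2) (hgi.const_mul _) a5
  have ng : ∀ x, ‖gradient (fun y => -f y) x‖ ^ 2 = ‖gradient f x‖ ^ 2 := fun x => by
    unfold gradient
    rw [fderiv_fun_neg]
    simp
  have E2 : Entropy μ (fun x => g2 x ^ 2) ≤ Q * (B ^ 2 * I) := by
    refine (hQ g2 b1 b2 b3 b4).trans (mul_le_mul_of_nonneg_left ?_ hQ0)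
    rw [hI, ← integral_const_mul]
    refine integral_mono (gradint g2 b1 b2) (hgi.const_mul _) fun x => ?_
    have := b5 x
    rw [ng x] at this
    exact this
  -- the estimate with an error
  refine le_of_forall_pos_le_add fun ε hε => ?_
  set c := V + min (ε / 4) m with hc
  have hmin0 : 0 < min (ε / 4) m := lt_min (by linarith) hmpos
  have hcp : 0 < c := by rw [hc]; linarith
  have hcm : c ≤ 2 * m := by
    have := min_le_right (ε / 4) m
    rw [hc]; linarith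
  have hcV : V ≤ c := by rw [hc]; linarith
  have hcε : c ≤ V + ε / 4 := by
    have := min_le_left (ε / 4) m
    rw [hc]; linarith
  have main := est hmpos hcp hcm hTσ (fun x hx => a7 x (by linarith)) (fun x hx => b7 x (by linarith))
    k1 k2 k3 k4 k5 hi2 k8 hm.symm
  have hLval : 8 * (1 + Real.log (4 * T / √m)) = 8 * (1 + Real.log 4 + Real.log R / 2) := by
    have e1 : 4 * T / √m = 4 * √R := by
      have : √m ≠ 0 := hσp.ne'
      rw [hTdef, hσ]; field_simp
    rw [e1, Real.log_mul (by norm_num) (by positivity), Real.log_sqrt hRp.le]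
    ring
  exact numbers hlogR hP0 hQ0 hI0 hV0 hVP hLval main hvar1 (half_int k1 k3 (hm1.trans hcV))
    (half_int k2 k4 (hm2.trans hcV)) hm1 hm2 E1 E2 hcε

end Vale.Agent.P245.H23
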