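import Vale.Agent.P245.H607.Cor
import Vale.Agent.P245.H23.TopFin

/-!
P245: exponential moments of concave functions in terms of the mean square of the gradient (helper23).
-/

open MeasureTheory Real Set Filter Topology
open scoped ENNReal NNReal ContDiff

namespace Vale.Agent.P245.H23

variable {n : ℕ} {μ : Measure (EuclideanSpace ℝ (Fin n))}

/-- tangent plane inequality for a concave differentiable function -/
theorem tangent_le {f : EuclideanSpace ℝ (Fin n) → ℝ} (hc : ConcaveOn ℝ univ f)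
    (hd : Differentiable ℝ f) (x y : EuclideanSpace ℝ (Fin n)) :
    f x ≤ f y + inner ℝ (gradient f y) (x - y) := by
  have hcφ : ConcaveOn ℝ univ (f ∘ (AffineMap.lineMap y x : ℝ →ᵃ[ℝ] EuclideanSpace ℝ (Fin n))) := by
    have := hc.comp_affineMap (AffineMap.lineMap y x : ℝ →ᵃ[ℝ] EuclideanSpace ℝ (Fin n))
    simpa using this
  have hder : HasDerivAt (f ∘ (AffineMap.lineMap y x : ℝ →ᵃ[ℝ] EuclideanSpace ℝ (Fin n)))
      (inner ℝ (gradient f y) (x - y)) 0 := by
    have h1 : HasDerivAt (AffineMap.lineMap y x : ℝ →ᵃ[ℝ] EuclideanSpace ℝ (Fin n)) (x - y) (0 : ℝ) :=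
      AffineMap.hasDerivAt_lineMap
    have h2 : HasFDerivAt f (fderiv ℝ f ((AffineMap.lineMap y x : ℝ →ᵃ[ℝ] EuclideanSpace ℝ (Fin n)) 0))
        ((AffineMap.lineMap y x : ℝ →ᵃ[ℝ] EuclideanSpace ℝ (Fin n)) 0) := (hd _).hasFDerivAt
    have h3 := h2.comp_hasDerivAt (0 : ℝ) h1
    rw [AffineMap.lineMap_apply_zero] at h3
    have e2 : fderiv ℝ f y (x - y) = inner ℝ (gradient f y) (x - y) := by
      unfold gradient
      rw [InnerProductSpace.toDual_symm_apply]
    rwa [e2] at h3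
  have h := hcφ.slope_le_of_hasDerivAt (x := 0) (y := 1) (mem_univ _) (mem_univ _) one_pos hder
  rw [slope_def_field] at h
  simp only [Function.comp_apply, AffineMap.lineMap_apply_zero, AffineMap.lineMap_apply_one,
    sub_zero, div_one] at h
  linarith

/-- tangent functional at `y` -/
noncomputable def ell (f : EuclideanSpace ℝ (Fin n) → ℝ) (y x : EuclideanSpace ℝ (Fin n)) : ℝ :=
  f y + inner ℝ (gradient f y) (x - y)

/-- infimum of the tangent planes with gradient at most `L` -/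
noncomputable def maj (f : EuclideanSpace ℝ (Fin n) → ℝ) (L : ℝ) (x : EuclideanSpace ℝ (Fin n)) : ℝ :=
  ⨅ y : {y : EuclideanSpace ℝ (Fin n) // ‖gradient f y‖ ≤ L}, ell f y.1 x

section
variable {f : EuclideanSpace ℝ (Fin n) → ℝ} {L : ℝ}

theorem bdd (hc : ConcaveOn ℝ univ f) (hd : Differentiable ℝ f) (x : EuclideanSpace ℝ (Fin n)) :
    BddBelow (range fun y : {y : EuclideanSpace ℝ (Fin n) // ‖gradient f y‖ ≤ L} => ell f y.1 x) :=
  ⟨f x, by rintro _ ⟨y, rfl⟩; exact tangent_le hc hd x y.1⟩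

theorem le_maj (hc : ConcaveOn ℝ univ f) (hd : Differentiable ℝ f)
    (hne : ∃ y, ‖gradient f y‖ ≤ L) (x : EuclideanSpace ℝ (Fin n)) : f x ≤ maj f L x := by
  obtain ⟨y0, hy0⟩ := hne
  have : Nonempty {y : EuclideanSpace ℝ (Fin n) // ‖gradient f y‖ ≤ L} := ⟨⟨y0, hy0⟩⟩
  exact le_ciInf fun y => tangent_le hc hd x y.1

theorem maj_eq (hc : ConcaveOn ℝ univ f) (hd : Differentiable ℝ f)
    {x : EuclideanSpace ℝ (Fin n)} (hx : ‖gradient f x‖ ≤ L) : maj f L x = f x := by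
  apply le_antisymm _ (le_maj hc hd ⟨x, hx⟩ x)
  have := ciInf_le (bdd hc hd (L := L) x) ⟨x, hx⟩
  refine this.trans (le_of_eq ?_)
  simp [ell]

theorem maj_lip (hc : ConcaveOn ℝ univ f) (hd : Differentiable ℝ f)
    (hne : ∃ y, ‖gradient f y‖ ≤ L) (x x' : EuclideanSpace ℝ (Fin n)) :
    maj f L x - maj f L x' ≤ L * ‖x - x'‖ := by
  obtain ⟨y0, hy0⟩ := hne
  have : Nonempty {y : EuclideanSpace ℝ (Fin n) // ‖gradient f y‖ ≤ L} := ⟨⟨y0, hy0⟩⟩
  have key : maj f L x - L * ‖x - x'‖ ≤ maj f L x' := by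
    apply le_ciInf
    intro y
    have h1 : maj f L x ≤ ell f y.1 x := ciInf_le (bdd hc hd (L := L) x) y
    have h2 : ell f y.1 x = ell f y.1 x' + inner ℝ (gradient f y.1) (x - x') := by
      unfold ell
      rw [inner_sub_right, inner_sub_right, inner_sub_right]
      ring
    have h3 : inner ℝ (gradient f y.1) (x - x') ≤ L * ‖x - x'‖ :=
      (real_inner_le_norm _ _).trans (mul_le_mul_of_nonneg_right y.2 (norm_nonneg _))
    linarith
  linarith

theorem maj_concave (hc : ConcaveOn ℝ univ f) (hd : Differentiable ℝ f)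
    (hne : ∃ y, ‖gradient f y‖ ≤ L) : ConcaveOn ℝ univ (maj f L) := by
  obtain ⟨y0, hy0⟩ := hne
  have : Nonempty {y : EuclideanSpace ℝ (Fin n) // ‖gradient f y‖ ≤ L} := ⟨⟨y0, hy0⟩⟩
  refine ⟨convex_univ, fun x _ x' _ s t hs ht hst => ?_⟩
  simp only [smul_eq_mul]
  apply le_ciInf
  intro y
  have h1 : maj f L x ≤ ell f y.1 x := ciInf_le (bdd hc hd (L := L) x) y
  have h2 : maj f L x' ≤ ell f y.1 x' := ciInf_le (bdd hc hd (L := L) x') y
  have h3 : ell f y.1 (s • x + t • x') = s * ell f y.1 x + t * ell f y.1 x' := by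
    unfold ell
    have e : s • x + t • x' - y.1 = s • (x - y.1) + t • (x' - y.1) := by
      have : y.1 = s • y.1 + t • y.1 := by rw [← add_smul, hst, one_smul]
      rw [smul_sub, smul_sub]
      nth_rewrite 1 [this]
      abel
    rw [e, inner_add_right, inner_smul_right, inner_smul_right]
    have : f y.1 = s * f y.1 + t * f y.1 := by rw [← add_mul, hst, one_mul]
    nth_rewrite 1 [this]
    ring
  rw [h3]
  have h4 := mul_le_mul_of_nonneg_left h1 hs
  have h5 := mul_le_mul_of_nonneg_left h2 ht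
  linarith

end

/-- `CONC` for `L`-Lipschitz concave functions, with the integrability facts -/
theorem conc_L [IsProbabilityMeasure μ] {a C0 : ℝ} (ha : 0 < a) (hC0 : 0 < C0) (hK : H607.KLS C0)
    (hlc : HasLogConcaveDensity μ) (hsub : LinearlySubgaussian μ a)
    {G : EuclideanSpace ℝ (Fin n) → ℝ} {L : ℝ} (hL : 0 < L)
    (hG : ∀ x y, G x - G y ≤ L * ‖x - y‖) (hGc : ConcaveOn ℝ univ G) :
    Integrable G μ ∧ (∀ t m : ℝ, Integrable (fun x => exp (t * (G x - m))) μ) ∧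
      ∀ t : ℝ, 0 ≤ t → ∫ x, exp (t * (G x - ∫ y, G y ∂μ)) ∂μ
        ≤ exp ((8 * C0 + 26) * a ^ 2 * L ^ 2 * t ^ 2) := by
  have hF : LipschitzWith 1 (fun x => L⁻¹ * G x) := by
    apply H607.lipschitz_of
    intro x y
    rw [← mul_sub]
    have h1 := mul_le_mul_of_nonneg_left (hG x y) (inv_pos.2 hL).le
    rwa [← mul_assoc, inv_mul_cancel₀ hL.ne', one_mul] at h1
  have hFc : ConcaveOn ℝ univ (fun x => L⁻¹ * G x) := by
    have := hGc.smul (inv_pos.2 hL).le
    simpa [smul_eq_mul] using this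
  have hGL : ∀ x, G x = L * (L⁻¹ * G x) := fun x => by
    rw [← mul_assoc, mul_inv_cancel₀ hL.ne', one_mul]
  have hi : Integrable (fun x => L⁻¹ * G x) μ := H607.lip_integrable ha hsub hF
  have hGi : Integrable G μ := by
    have := hi.const_mul L
    refine this.congr (Eventually.of_forall fun x => ?_)
    exact (hGL x).symm
  refine ⟨hGi, fun t m => ?_, fun t ht => ?_⟩
  · have h1 := H607.exp_int ha hsub hF (-(L * t)) (L⁻¹ * m)
    refine h1.congr (Eventually.of_forall fun x => ?_)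
    simp only
    congr 1
    field_simp
  · have h1 := H607.cor_concave ha hC0 hK hlc hsub hF hFc (t := L * t) (by positivity)
    rw [integral_const_mul] at h1
    have e1 : (8 * C0 + 26) * a ^ 2 * (L * t) ^ 2 = (8 * C0 + 26) * a ^ 2 * L ^ 2 * t ^ 2 := by ring
    rw [e1] at h1
    refine le_trans (le_of_eq ?_) h1
    apply integral_congr_ae
    refine Eventually.of_forall fun x => ?_
    simp only
    congr 1
    field_simp

/-- from one-sided exponential moments to the first absolute moment -/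
theorem abs_le_of_exp [IsProbabilityMeasure μ] {g : EuclideanSpace ℝ (Fin n) → ℝ}
    (hg : Integrable g μ) (h0 : ∫ x, g x ∂μ = 0) {q : ℝ} (hq : 0 < q)
    (hi : Integrable (fun x => exp (q⁻¹ * g x)) μ) (he : ∫ x, exp (q⁻¹ * g x) ∂μ ≤ exp 1) :
    ∫ x, |g x| ∂μ ≤ 6 * q := by
  have h1 : ∀ x, |g x| ≤ 2 * q * exp (q⁻¹ * g x) - g x := by
    intro x
    have h2 : q⁻¹ * g x ≤ exp (q⁻¹ * g x) := by
      have := add_one_le_exp (q⁻¹ * g x)
      linarith
    have h3 : g x ≤ q * exp (q⁻¹ * g x) := by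
      have := mul_le_mul_of_nonneg_left h2 hq.le
      rwa [← mul_assoc, mul_inv_cancel₀ hq.ne', one_mul] at this
    have h4 : 0 < q * exp (q⁻¹ * g x) := by positivity
    rcases abs_cases (g x) with ⟨h5, _⟩ | ⟨h5, _⟩
    · rw [h5]; linarith
    · rw [h5]; linarith
  have h2 : ∫ x, |g x| ∂μ ≤ ∫ x, (2 * q * exp (q⁻¹ * g x) - g x) ∂μ :=
    integral_mono hg.abs ((hi.const_mul _).sub hg) h1
  rw [integral_sub (hi.const_mul _) hg, h0, integral_const_mul, sub_zero] at h2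
  have h3 : exp 1 ≤ 3 := by have := exp_one_lt_d9; linarith
  have h4 : 2 * q * ∫ x, exp (q⁻¹ * g x) ∂μ ≤ 2 * q * 3 :=
    mul_le_mul_of_nonneg_left (he.trans h3) (by positivity)
  linarith

/-- a common good point of three events -/
theorem common_point [IsProbabilityMeasure μ] {A B D : Set (EuclideanSpace ℝ (Fin n))}
    (hA : μ.real A ≤ 1 / 4) (hB : μ.real B ≤ 1 / 4) (hD : μ.real D ≤ 1 / 4) :
    ∃ x, x ∉ A ∧ x ∉ B ∧ x ∉ D := by
  by_contra hcon
  push Not at hcon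
  have h1 : (univ : Set (EuclideanSpace ℝ (Fin n))) ⊆ A ∪ (B ∪ D) := by
    intro x _
    by_cases hxA : x ∈ A
    · exact Or.inl hxA
    · by_cases hxB : x ∈ B
      · exact Or.inr (Or.inl hxB)
      · exact Or.inr (Or.inr (hcon x hxA hxB))
  have h2 : μ.real univ ≤ μ.real A + (μ.real B + μ.real D) := by
    refine (measureReal_mono h1 (measure_ne_top _ _)).trans ?_
    refine (measureReal_union_le _ _).trans ?_
    have := measureReal_union_le (μ := μ) B D
    linarith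
  rw [probReal_univ] at h2
  linarith

/-- Markov -/
theorem markov4 [IsProbabilityMeasure μ] {g : EuclideanSpace ℝ (Fin n) → ℝ} (hg0 : ∀ x, 0 ≤ g x)
    (hg : Integrable g μ) {c : ℝ} (hc : 0 < c) (h : ∫ x, g x ∂μ ≤ c / 4) :
    μ.real {x | c ≤ g x} ≤ 1 / 4 := by
  have h1 := mul_meas_ge_le_integral_of_nonneg (μ := μ) (Eventually.of_forall hg0) hg c
  have h2 : c * μ.real {x | c ≤ g x} ≤ c * (1 / 4) := by linarith
  exact le_of_mul_le_mul_left h2 hc

/-- the elementary inequality behind the small gradient case -/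
theorem exp_le_quad {g r : ℝ} (hr : 0 < r) (hr1 : r ≤ 1) :
    exp g ≤ 1 + g + g ^ 2 + 2 * r ^ 2 * exp (r⁻¹ * g) := by
  rcases le_or_gt 1 g with h | h
  · have hu : 0 ≤ r⁻¹ - 1 := by
      have := (one_le_inv₀ hr).2 hr1
      linarith
    have h1 := quadratic_le_exp_of_nonneg hu
    have h2 : (r⁻¹ - 1) ≤ (r⁻¹ - 1) * g := by nlinarith
    have h3 : exp (r⁻¹ - 1) ≤ exp ((r⁻¹ - 1) * g) := exp_le_exp.2 h2
    have h4 : (r⁻¹) ^ 2 ≤ 2 * exp ((r⁻¹ - 1) * g) := by
      nlinarith [sq_nonneg (r⁻¹ - 1)]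
    have h5 : 1 ≤ 2 * r ^ 2 * exp ((r⁻¹ - 1) * g) := by
      have h6 := mul_le_mul_of_nonneg_left h4 (sq_nonneg r)
      have h7 : r ^ 2 * r⁻¹ ^ 2 = 1 := by
        rw [← mul_pow, mul_inv_cancel₀ hr.ne', one_pow]
      rw [h7] at h6
      linarith
    have h8 : exp (r⁻¹ * g) = exp g * exp ((r⁻¹ - 1) * g) := by
      rw [← exp_add]; congr 1; ring
    rw [h8]
    have h9 := mul_le_mul_of_nonneg_left h5 (exp_pos g).le
    nlinarith [sq_nonneg g]
  · have h0 : 0 ≤ 2 * r ^ 2 * exp (r⁻¹ * g) := by positivity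
    rcases le_or_gt (-1) g with h1 | h1
    · have h2 := abs_exp_sub_one_sub_id_le (x := g) (abs_le.2 ⟨h1, h.le⟩)
      have h3 := (abs_le.1 h2).2
      linarith
    · have h2 : exp g ≤ 1 := by
        rw [exp_le_one_iff]; linarith
      nlinarith

/-- exponential moments of a concave function, linear + quadratic form -/
theorem exp_moment [IsProbabilityMeasure μ] {a C0 : ℝ} (ha : 0 < a) (hC0 : 0 < C0)
    (hK : H607.KLS C0)
    (hlc : HasLogConcaveDensity μ) (hsub : LinearlySubgaussian μ a)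
    {f : EuclideanSpace ℝ (Fin n) → ℝ} (hc : ConcaveOn ℝ univ f) (hd : Differentiable ℝ f)
    (hfi : Integrable f μ) (hf2 : Integrable (fun x => f x ^ 2) μ)
    (hgi : Integrable (fun x => ‖gradient f x‖ ^ 2) μ)
    {s : ℝ} (hs : 0 < s) (hgs : ∫ x, ‖gradient f x‖ ^ 2 ∂μ ≤ s ^ 2)
    (hv : (∫ x, f x ^ 2 ∂μ) - (∫ x, f x ∂μ) ^ 2 ≤ C0 * a ^ 2 * s ^ 2) :
    (∀ t : ℝ, 0 ≤ t → Integrable (fun x => exp (t * (f x - ∫ y, f y ∂μ))) μ) ∧
    ∀ t : ℝ, 0 ≤ t → ∫ x, exp (t * (f x - ∫ y, f y ∂μ)) ∂μ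
      ≤ exp ((2 * √C0 + 48 * √(8 * C0 + 26)) * (a * s) * t
        + 4 * (8 * C0 + 26) * (a * s) ^ 2 * t ^ 2) := by
  set m := ∫ x, f x ∂μ with hm
  set C := 8 * C0 + 26 with hC
  have hCp : 0 < C := by positivity
  have hL : 0 < 2 * s := by positivity
  -- good set for the gradient
  have hAm : μ.real {x | (2 * s) ^ 2 ≤ ‖gradient f x‖ ^ 2} ≤ 1 / 4 := by
    apply markov4 (fun x => sq_nonneg _) hgi (by positivity)
    refine hgs.trans (le_of_eq ?_)
    ring
  have hne : ∃ y, ‖gradient f y‖ ≤ 2 * s := by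
    obtain ⟨x, hx, _, _⟩ := common_point hAm hAm hAm
    refine ⟨x, ?_⟩
    have hx' : ‖gradient f x‖ ^ 2 < (2 * s) ^ 2 := not_le.1 hx
    exact (lt_of_pow_lt_pow_left₀ 2 hL.le hx').le
  set G := maj f (2 * s) with hGdef
  have hGlip := maj_lip hc hd hne
  have hGconc := maj_concave hc hd hne
  have hfG := le_maj hc hd hne
  obtain ⟨hGi, hGe, hGm⟩ := conc_L ha hC0 hK hlc hsub hL hGlip hGconc
  rw [← hGdef] at hGi hGe hGm
  set EG := ∫ x, G x ∂μ with hEG
  -- the mean of `G`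
  set q := 2 * (a * s) * √C with hq
  have hqp : 0 < q := by positivity
  have hGs : Integrable (fun x => G x - EG) μ := hGi.sub (integrable_const _)
  have hGz : ∫ x, (G x - EG) ∂μ = 0 := by
    rw [integral_sub hGi (integrable_const _)]
    simp [hEG]
  have hqe : C * a ^ 2 * (2 * s) ^ 2 * q⁻¹ ^ 2 = 1 := by
    have hsq : √C ^ 2 = C := sq_sqrt hCp.le
    have h1 : q ^ 2 = C * a ^ 2 * (2 * s) ^ 2 := by rw [hq, mul_pow, hsq]; ring
    rw [← h1, ← mul_pow, mul_inv_cancel₀ hqp.ne', one_pow]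
  have habs : ∫ x, |G x - EG| ∂μ ≤ 6 * q := by
    refine abs_le_of_exp hGs hGz hqp (hGe q⁻¹ EG) ?_
    have h1 := hGm q⁻¹ (inv_pos.2 hqp).le
    rwa [hqe] at h1
  have hBm : μ.real {x | 24 * q ≤ |G x - EG|} ≤ 1 / 4 := by
    refine markov4 (g := fun x => |G x - EG|) (fun x => abs_nonneg _) hGs.abs (by positivity) ?_
    linarith
  have hvar : ∫ x, (f x - m) ^ 2 ∂μ ≤ C0 * a ^ 2 * s ^ 2 := by
    rw [int_sq_sub hfi hf2 m, ← hm]
    linarith
  have hvi : Integrable (fun x => (f x - m) ^ 2) μ := by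
    have e : (fun x => (f x - m) ^ 2) = fun x => f x ^ 2 - 2 * m * f x + m ^ 2 := by
      funext x; ring
    rw [e]
    exact (hf2.sub (hfi.const_mul _)).add (integrable_const _)
  have hDm : μ.real {x | (2 * (a * s) * √C0) ^ 2 ≤ (f x - m) ^ 2} ≤ 1 / 4 := by
    apply markov4 (fun x => sq_nonneg _) hvi (by positivity)
    refine hvar.trans (le_of_eq ?_)
    have hsq : √C0 ^ 2 = C0 := sq_sqrt hC0.le
    rw [mul_pow, hsq]
    ring
  obtain ⟨x, hxA, hxB, hxD⟩ := common_point hAm hBm hDm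
  have hxA' : ‖gradient f x‖ ≤ 2 * s := by
    have hx' : ‖gradient f x‖ ^ 2 < (2 * s) ^ 2 := not_le.1 hxA
    exact (lt_of_pow_lt_pow_left₀ 2 hL.le hx').le
  have hxB' : |G x - EG| < 24 * q := not_le.1 hxB
  have hxD' : (f x - m) ^ 2 < (2 * (a * s) * √C0) ^ 2 := not_le.1 hxD
  have hGx : G x = f x := maj_eq hc hd hxA'
  have hfx : f x - m ≤ 2 * (a * s) * √C0 := by
    have := abs_lt_of_sq_lt_sq hxD' (by positivity)
    exact (le_abs_self _).trans this.le
  have hEGm : EG - m ≤ (2 * √C0 + 48 * √C) * (a * s) := by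
    have h1 := (abs_lt.1 hxB').1
    rw [hGx] at h1
    have h2 : 24 * q = 48 * √C * (a * s) := by rw [hq]; ring
    nlinarith
  have hfc : Continuous f := hd.continuous
  have hint : ∀ t : ℝ, 0 ≤ t → Integrable (fun x => exp (t * (f x - m))) μ := by
    intro t ht
    refine (hGe t m).mono' ?_ (Eventually.of_forall fun x => ?_)
    · exact (continuous_exp.comp (continuous_const.mul (hfc.sub continuous_const))).aestronglyMeasurable
    · rw [norm_eq_abs, abs_of_pos (exp_pos _)]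
      apply exp_le_exp.2
      exact mul_le_mul_of_nonneg_left (sub_le_sub_right (hfG x) m) ht
  refine ⟨hint, fun t ht => ?_⟩
  have h1 : ∫ x, exp (t * (f x - m)) ∂μ ≤ ∫ x, exp (t * (G x - m)) ∂μ := by
    apply integral_mono (hint t ht) (hGe t m)
    intro x
    apply exp_le_exp.2
    exact mul_le_mul_of_nonneg_left (sub_le_sub_right (hfG x) m) ht
  have h2 : ∫ x, exp (t * (G x - m)) ∂μ = exp (t * (EG - m)) * ∫ x, exp (t * (G x - EG)) ∂μ := by
    rw [← integral_const_mul]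
    apply integral_congr_ae
    refine Eventually.of_forall fun x => ?_
    simp only
    rw [← exp_add]; congr 1; ring
  rw [h2] at h1
  refine h1.trans ?_
  have h3 := hGm t ht
  refine (mul_le_mul_of_nonneg_left h3 (exp_pos _).le).trans ?_
  rw [← exp_add]
  apply exp_le_exp.2
  have h4 := mul_le_mul_of_nonneg_left hEGm ht
  nlinarith

/-- the absolute constant -/
noncomputable def CC (C0 : ℝ) : ℝ :=
  C0 + 2 * exp (2 * √C0 + 48 * √(8 * C0 + 26) + 4 * (8 * C0 + 26))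

theorem CC_pos {C0 : ℝ} (h : 0 < C0) : 0 < CC C0 := by unfold CC; positivity

/-- sub-Gaussian exponential moments of a concave function, with the mean square of the gradient -/
theorem exp_moment_one [IsProbabilityMeasure μ] {a C0 : ℝ} (ha : 0 < a) (hC0 : 0 < C0)
    (hK : H607.KLS C0)
    (hlc : HasLogConcaveDensity μ) (hsub : LinearlySubgaussian μ a)
    {f : EuclideanSpace ℝ (Fin n) → ℝ} (hc : ConcaveOn ℝ univ f) (hd : Differentiable ℝ f)
    (hfi : Integrable f μ) (hf2 : Integrable (fun x => f x ^ 2) μ)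
    (hgi : Integrable (fun x => ‖gradient f x‖ ^ 2) μ)
    {s : ℝ} (hs : 0 < s) (hgs : ∫ x, ‖gradient f x‖ ^ 2 ∂μ ≤ s ^ 2)
    (hv : (∫ x, f x ^ 2 ∂μ) - (∫ x, f x ∂μ) ^ 2 ≤ C0 * a ^ 2 * s ^ 2) :
    ∫ x, exp (f x - ∫ y, f y ∂μ) ∂μ ≤ exp (CC C0 * a ^ 2 * s ^ 2) := by
  obtain ⟨hint, hexp⟩ := exp_moment ha hC0 hK hlc hsub hc hd hfi hf2 hgi hs hgs hv
  set m := ∫ x, f x ∂μ with hm
  set k := 2 * √C0 + 48 * √(8 * C0 + 26) with hk
  set C := 4 * (8 * C0 + 26) with hC
  have hk0 : 0 ≤ k := by positivity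
  have hC0' : 0 < C := by positivity
  set r := a * s with hr
  have hrp : 0 < r := by positivity
  have hCC : CC C0 * a ^ 2 * s ^ 2 = (C0 + 2 * exp (k + C)) * r ^ 2 := by
    unfold CC; rw [hr]; ring
  rw [hCC]
  rcases le_or_gt r 1 with h1 | h1
  · have h2 : ∀ x, exp (f x - m) ≤ (1 + (f x - m) + (f x - m) ^ 2)
        + 2 * r ^ 2 * exp (r⁻¹ * (f x - m)) := fun x => exp_le_quad hrp h1
    have hi1 : Integrable (fun x => exp (f x - m)) μ := by
      have := hint 1 zero_le_one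
      simpa using this
    have hvi : Integrable (fun x => (f x - m) ^ 2) μ := by
      have e : (fun x => (f x - m) ^ 2) = fun x => f x ^ 2 - 2 * m * f x + m ^ 2 := by
        funext x; ring
      rw [e]
      exact (hf2.sub (hfi.const_mul _)).add (integrable_const _)
    have hl : Integrable (fun x => f x - m) μ := hfi.sub (integrable_const _)
    have hl1 : Integrable (fun x => 1 + (f x - m)) μ := (integrable_const _).add hl
    have hr0 : 0 ≤ r⁻¹ := (inv_pos.2 hrp).le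
    have h3 : ∫ x, exp (f x - m) ∂μ ≤ ∫ x, ((1 + (f x - m) + (f x - m) ^ 2)
        + 2 * r ^ 2 * exp (r⁻¹ * (f x - m))) ∂μ :=
      integral_mono hi1 ((hl1.add hvi).add ((hint _ hr0).const_mul _)) h2
    have e1 : ∫ x, ((1 + (f x - m) + (f x - m) ^ 2) + 2 * r ^ 2 * exp (r⁻¹ * (f x - m))) ∂μ
        = 1 + (∫ x, (f x - m) ^ 2 ∂μ) + 2 * r ^ 2 * ∫ x, exp (r⁻¹ * (f x - m)) ∂μ := by
      have a1 : ∫ x, ((1 + (f x - m) + (f x - m) ^ 2) + 2 * r ^ 2 * exp (r⁻¹ * (f x - m))) ∂μ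
          = ∫ x, (1 + (f x - m) + (f x - m) ^ 2) ∂μ + ∫ x, 2 * r ^ 2 * exp (r⁻¹ * (f x - m)) ∂μ :=
        integral_add (hl1.add hvi) ((hint _ hr0).const_mul _)
      have a2 : ∫ x, (1 + (f x - m) + (f x - m) ^ 2) ∂μ
          = ∫ x, (1 + (f x - m)) ∂μ + ∫ x, (f x - m) ^ 2 ∂μ := integral_add hl1 hvi
      have a3 : ∫ x, (1 + (f x - m)) ∂μ = 1 := by
        have a4 : ∫ x, (1 + (f x - m)) ∂μ = ∫ _x, (1 : ℝ) ∂μ + ∫ x, (f x - m) ∂μ :=
          integral_add (integrable_const _) hl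
        have a5 : ∫ x, (f x - m) ∂μ = 0 := by
          rw [integral_sub hfi (integrable_const _)]
          simp [hm]
        rw [a4, a5]
        simp
      rw [a1, a2, a3, integral_const_mul]
    have hvar : ∫ x, (f x - m) ^ 2 ∂μ ≤ C0 * r ^ 2 := by
      rw [int_sq_sub hfi hf2 m, ← hm, hr]
      have e3 : C0 * (a * s) ^ 2 = C0 * a ^ 2 * s ^ 2 := by ring
      rw [e3]
      linarith
    have h4 := hexp r⁻¹ hr0
    have e2 : k * r * r⁻¹ + C * r ^ 2 * r⁻¹ ^ 2 = k + C := by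
      have h7 : r ^ 2 * r⁻¹ ^ 2 = 1 := by
        rw [← mul_pow, mul_inv_cancel₀ hrp.ne', one_pow]
      have h8 : r * r⁻¹ = 1 := mul_inv_cancel₀ hrp.ne'
      calc k * r * r⁻¹ + C * r ^ 2 * r⁻¹ ^ 2 = k * (r * r⁻¹) + C * (r ^ 2 * r⁻¹ ^ 2) := by ring
        _ = k + C := by rw [h7, h8]; ring
    rw [e2] at h4
    rw [e1] at h3
    have h5 : 2 * r ^ 2 * ∫ x, exp (r⁻¹ * (f x - m)) ∂μ ≤ 2 * r ^ 2 * exp (k + C) :=
      mul_le_mul_of_nonneg_left h4 (by positivity)
    have h6 : ∫ x, exp (f x - m) ∂μ ≤ 1 + (C0 + 2 * exp (k + C)) * r ^ 2 := by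
      refine h3.trans ?_
      nlinarith
    have h7 := add_one_le_exp ((C0 + 2 * exp (k + C)) * r ^ 2)
    linarith
  · have h2 := hexp 1 zero_le_one
    simp only [one_mul, mul_one, one_pow] at h2
    refine h2.trans (exp_le_exp.2 ?_)
    have h3 : k * r ≤ k * r ^ 2 := by
      apply mul_le_mul_of_nonneg_left _ hk0
      nlinarith
    have h4 : k + C ≤ exp (k + C) := by
      have := add_one_le_exp (k + C)
      linarith
    have h5 : (k + C) * r ^ 2 ≤ exp (k + C) * r ^ 2 := mul_le_mul_of_nonneg_right h4 (sq_nonneg r)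
    have h6 : 0 ≤ exp (k + C) * r ^ 2 := by positivity
    have h7 : 0 ≤ C0 * r ^ 2 := by positivity
    nlinarith

end Vale.Agent.P245.H23
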