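import Vale.Agent.P245.H23.Avg
import Vale.Agent.P245.H895.QuadR

/-!
P245: concave functions of polynomial growth: exponential moments and entropy in terms of the mean
square of the gradient (helper23).
-/

set_option linter.all false

open MeasureTheory Real Set Filter Topology
open scoped ENNReal NNReal ContDiff
open Vale.Agent.P227.M Vale.Agent.P254

namespace Vale.Agent.P245.H23

open Vale.Agent.P245.Q895

variable {n : ℕ} {μ : Measure (EuclideanSpace ℝ (Fin n))}

/-- polynomial growth of a function and of its gradient -/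
structure PolyGr (f : EuclideanSpace ℝ (Fin n) → ℝ) : Prop where
  gr : Gr f
  grp : ∀ i, Gr (pd i f)

theorem polyGr_of {f : EuclideanSpace ℝ (Fin n) → ℝ} (hf : ContDiff ℝ ∞ f)
    {A : ℝ} {N : ℕ} (hgr : ∀ x, |f x| ≤ A * (1 + ‖x‖) ^ N)
    (hgr' : ∀ x, ‖gradient f x‖ ≤ A * (1 + ‖x‖) ^ N) : PolyGr f := by
  have hA : 0 ≤ A := by
    have := (abs_nonneg _).trans (hgr 0)
    simpa using this
  refine ⟨⟨hf.continuous, A, N, hA, hgr⟩, fun i => ⟨?_, A, N, hA, fun x => ?_⟩⟩
  · have h1 : Continuous (fderiv ℝ f) := hf.continuous_fderiv (by simp)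
    exact h1.clm_apply continuous_const
  · rw [← grad_coord]
    exact (H607.abs_grad_i_le f x i).trans (hgr' x)

theorem poly_tools [IsProbabilityMeasure μ] {a C0 : ℝ} (ha : 0 < a) (hC0 : 0 < C0)
    (hK : H607.KLS C0)
    (hlc : HasLogConcaveDensity μ) (hsub : LinearlySubgaussian μ a)
    {f : EuclideanSpace ℝ (Fin n) → ℝ} (hf : ContDiff ℝ ∞ f) (hp : PolyGr f) :
    Integrable f μ ∧ Integrable (fun x => f x ^ 2) μ ∧ Integrable (fun x => ‖gradient f x‖ ^ 2) μ ∧
      (∫ x, f x ^ 2 ∂μ) - (∫ x, f x ∂μ) ^ 2 ≤ C0 * a ^ 2 * ∫ x, ‖gradient f x‖ ^ 2 ∂μ := by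
  have hK' : Q895.KLS C0 := hK
  refine ⟨int_gr hlc hp.gr, int_gr hlc (hp.gr.pow 2), ?_, kls_sub hC0 hK' hlc ha hsub hf hp.gr hp.grp⟩
  simp only [norm_grad_sq]
  exact int_gr hlc (Gr.sum _ fun i _ => (hp.grp i).pow 2)

/-- exponential moments of a smooth concave function of polynomial growth -/
theorem avg_exp [IsProbabilityMeasure μ] {a C0 : ℝ} (ha : 0 < a) (hC0 : 0 < C0)
    (hK : H607.KLS C0)
    (hlc : HasLogConcaveDensity μ) (hsub : LinearlySubgaussian μ a)
    {f : EuclideanSpace ℝ (Fin n) → ℝ} (hf : ContDiff ℝ ∞ f) (hc : ConcaveOn ℝ univ f)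
    (hp : PolyGr f) :
    (∀ t : ℝ, 0 ≤ t → Integrable (fun x => exp (t * (f x - ∫ y, f y ∂μ))) μ) ∧
    ∫ x, exp (f x - ∫ y, f y ∂μ) ∂μ ≤ exp (CC C0 * a ^ 2 * ∫ x, ‖gradient f x‖ ^ 2 ∂μ) := by
  obtain ⟨hfi, hf2, hgi, hv⟩ := poly_tools ha hC0 hK hlc hsub hf hp
  have hd : Differentiable ℝ f := hf.differentiable (by simp)
  set J := ∫ x, ‖gradient f x‖ ^ 2 ∂μ with hJ
  have hJ0 : 0 ≤ J := integral_nonneg fun x => sq_nonneg _
  have key : ∀ e : ℝ, 0 < e → 0 < √(J + e) ∧ ∫ x, ‖gradient f x‖ ^ 2 ∂μ ≤ √(J + e) ^ 2 ∧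
      (∫ x, f x ^ 2 ∂μ) - (∫ x, f x ∂μ) ^ 2 ≤ C0 * a ^ 2 * √(J + e) ^ 2 := by
    intro e he
    have h1 : 0 < J + e := by linarith
    refine ⟨sqrt_pos.2 h1, ?_, ?_⟩
    · rw [sq_sqrt h1.le, ← hJ]; linarith
    · rw [sq_sqrt h1.le]
      refine hv.trans ?_
      apply mul_le_mul_of_nonneg_left _ (by positivity)
      linarith
  constructor
  · obtain ⟨h1, h2, h3⟩ := key 1 one_pos
    exact (exp_moment ha hC0 hK hlc hsub hc hd hfi hf2 hgi h1 h2 h3).1
  · have h5 : ∀ e : ℝ, 0 < e → ∫ x, exp (f x - ∫ y, f y ∂μ) ∂μ ≤ exp (CC C0 * a ^ 2 * (J + e)) := by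
      intro e he
      obtain ⟨h1, h2, h3⟩ := key e he
      have h4 := exp_moment_one ha hC0 hK hlc hsub hc hd hfi hf2 hgi h1 h2 h3
      rwa [sq_sqrt (by linarith)] at h4
    have hcont : Tendsto (fun e : ℝ => exp (CC C0 * a ^ 2 * (J + e))) (𝓝[>] 0)
        (𝓝 (exp (CC C0 * a ^ 2 * (J + 0)))) := by
      have : Continuous (fun e : ℝ => exp (CC C0 * a ^ 2 * (J + e))) := by fun_prop
      exact (this.tendsto 0).mono_left nhdsWithin_le_nhds
    rw [add_zero] at hcont
    refine ge_of_tendsto hcont ?_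
    filter_upwards [self_mem_nhdsWithin] with e he
    exact h5 e he

theorem gradient_two {f : EuclideanSpace ℝ (Fin n) → ℝ} (hd : Differentiable ℝ f)
    (x : EuclideanSpace ℝ (Fin n)) : ‖gradient (fun y => 2 * f y) x‖ ^ 2 = 4 * ‖gradient f x‖ ^ 2 := by
  have h1 : fderiv ℝ (fun y => 2 * f y) x = (2 : ℝ) • fderiv ℝ f x := fderiv_const_mul (hd x) 2
  rw [H607.norm_grad, H607.norm_grad, h1, norm_smul, mul_pow]
  norm_num

/-- entropy of `exp f`, `f` smooth concave of polynomial growth -/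
theorem avg_ent [IsProbabilityMeasure μ] {a C0 : ℝ} (ha : 0 < a) (hC0 : 0 < C0)
    (hK : H607.KLS C0)
    (hlc : HasLogConcaveDensity μ) (hsub : LinearlySubgaussian μ a)
    {f : EuclideanSpace ℝ (Fin n) → ℝ} (hf : ContDiff ℝ ∞ f) (hc : ConcaveOn ℝ univ f)
    (hp : PolyGr f) :
    Integrable (fun x => exp (f x)) μ ∧ Integrable (fun x => exp (f x) * f x) μ ∧
    Entropy μ (fun x => exp (f x))
      ≤ 4 * CC C0 * a ^ 2 * (∫ x, ‖gradient f x‖ ^ 2 ∂μ) * ∫ x, exp (f x) ∂μ := by
  obtain ⟨hfi, hf2, hgi, hv⟩ := poly_tools ha hC0 hK hlc hsub hf hp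
  have hd : Differentiable ℝ f := hf.differentiable (by simp)
  obtain ⟨hint, h1⟩ := avg_exp ha hC0 hK hlc hsub hf hc hp
  have hp2 : PolyGr (fun x => 2 * f x) := by
    refine ⟨hp.gr.const_mul 2, fun i => ?_⟩
    have e : pd i (fun x => 2 * f x) = fun x => 2 * pd i f x := by
      funext x
      have h1 : fderiv ℝ (fun y => 2 * f y) x = (2 : ℝ) • fderiv ℝ f x := fderiv_const_mul (hd x) 2
      unfold pd
      rw [h1]
      rfl
    rw [e]
    exact (hp.grp i).const_mul 2
  have hc2 : ConcaveOn ℝ univ (fun x => 2 * f x) := by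
    have := hc.smul (zero_le_two : (0 : ℝ) ≤ 2)
    simpa [smul_eq_mul] using this
  obtain ⟨_, h2⟩ := avg_exp ha hC0 hK hlc hsub (contDiff_const.mul hf) hc2 hp2
  set m := ∫ x, f x ∂μ with hm
  set J := ∫ x, ‖gradient f x‖ ^ 2 ∂μ with hJ
  have eJ : ∫ x, ‖gradient (fun y => 2 * f y) x‖ ^ 2 ∂μ = 4 * J := by
    simp only [gradient_two hd]
    rw [integral_const_mul]
  rw [eJ, integral_const_mul, ← hm] at h2
  have hi1 : Integrable (fun x => exp (f x)) μ := by
    have := (hint 1 zero_le_one).mul_const (exp m)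
    refine this.congr (Eventually.of_forall fun x => ?_)
    simp only
    rw [← exp_add]; congr 1; ring
  have hi2 : Integrable (fun x => exp (2 * f x)) μ := by
    have := (hint 2 zero_le_two).mul_const (exp (2 * m))
    refine this.congr (Eventually.of_forall fun x => ?_)
    simp only
    rw [← exp_add]; congr 1; ring
  have hifl : Integrable (fun x => exp (f x) * f x) μ := by
    refine (hi2.add hf2).mono' ((continuous_exp.comp hf.continuous).mul hf.continuous).aestronglyMeasurable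
      (Eventually.of_forall fun x => ?_)
    rw [norm_eq_abs, abs_mul, abs_of_pos (exp_pos _)]
    have e : exp (2 * f x) = exp (f x) ^ 2 := by rw [← exp_nat_mul]; norm_num
    simp only [Pi.add_apply]
    rw [e, ← sq_abs (f x)]
    nlinarith [sq_nonneg (exp (f x) - |f x|), exp_pos (f x), abs_nonneg (f x),
      mul_nonneg (exp_pos (f x)).le (abs_nonneg (f x))]
  refine ⟨hi1, hifl, ?_⟩
  set E1 := ∫ x, exp (f x) ∂μ with hE1
  set E2 := ∫ x, exp (2 * f x) ∂μ with hE2
  have hE1p : 0 < E1 := integral_exp_pos hi1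
  have hE2p : 0 < E2 := integral_exp_pos hi2
  -- lower bound of `log E1`
  have l1 : m ≤ log E1 := by
    have h3 : ∫ x, (f x - m + 1) * exp m ∂μ ≤ E1 := by
      apply integral_mono (((hfi.sub (integrable_const _)).add (integrable_const _)).mul_const _) hi1
      intro x
      have h4 := mul_le_mul_of_nonneg_right (add_one_le_exp (f x - m)) (exp_pos m).le
      rw [← exp_add] at h4
      have e : f x - m + m = f x := by ring
      rw [e] at h4
      exact h4
    have h5 : ∫ x, (f x - m + 1) * exp m ∂μ = exp m := by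
      have hl : Integrable (fun x => f x - m) μ := hfi.sub (integrable_const _)
      have h0 : ∫ x, (f x - m) ∂μ = 0 := by
        rw [integral_sub hfi (integrable_const _)]; simp [hm]
      rw [integral_mul_const, integral_add hl (integrable_const _), h0]
      simp
    rw [h5] at h3
    exact (le_log_iff_exp_le hE1p).2 h3
  -- upper bound of `log E2`
  have l2 : log E2 ≤ 2 * m + CC C0 * a ^ 2 * (4 * J) := by
    rw [log_le_iff_le_exp hE2p]
    have e : E2 = exp (2 * m) * ∫ x, exp (2 * f x - 2 * m) ∂μ := by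
      rw [← integral_const_mul, hE2]
      apply integral_congr_ae
      refine Eventually.of_forall fun x => ?_
      simp only
      rw [← exp_add]; congr 1; ring
    rw [e, exp_add]
    exact mul_le_mul_of_nonneg_left h2 (exp_pos _).le
  -- Jensen
  have l3 : ∫ x, exp (f x) * f x ∂μ ≤ E1 * (log E2 - log E1) := by
    set c := log E2 - log E1 with hcdef
    have h3 : ∫ x, exp (f x) * (f x - c) ∂μ ≤ ∫ x, (exp (-c) * exp (2 * f x) - exp (f x)) ∂μ := by
      apply integral_mono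
      · have : (fun x => exp (f x) * (f x - c)) = fun x => exp (f x) * f x - exp (f x) * c := by
          funext x; ring
        rw [this]
        exact hifl.sub (hi1.mul_const _)
      · exact (hi2.const_mul _).sub hi1
      · intro x
        have h4 := mul_le_mul_of_nonneg_left (add_one_le_exp (f x - c)) (exp_pos (f x)).le
        have e : exp (-c) * exp (2 * f x) = exp (f x) * exp (f x - c) := by
          rw [← exp_add, ← exp_add]; congr 1; ring
        simp only
        rw [e]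
        linarith
    have e1 : ∫ x, exp (f x) * (f x - c) ∂μ = (∫ x, exp (f x) * f x ∂μ) - E1 * c := by
      have : (fun x => exp (f x) * (f x - c)) = fun x => exp (f x) * f x - exp (f x) * c := by
        funext x; ring
      rw [this, integral_sub hifl (hi1.mul_const _), integral_mul_const]
    have e2 : ∫ x, (exp (-c) * exp (2 * f x) - exp (f x)) ∂μ = 0 := by
      rw [integral_sub (hi2.const_mul _) hi1, integral_const_mul, ← hE1, ← hE2]
      have : exp (-c) = E1 / E2 := by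
        rw [hcdef, neg_sub, exp_sub, exp_log hE1p, exp_log hE2p]
      rw [this]
      field_simp
      ring
    rw [e1, e2] at h3
    linarith
  unfold Entropy
  simp only [log_exp]
  rw [← hE1]
  have h6 : E1 * (log E2 - log E1) - E1 * log E1 ≤ E1 * (4 * CC C0 * a ^ 2 * J) := by
    rw [← mul_sub]
    apply mul_le_mul_of_nonneg_left _ hE1p.le
    linarith
  have h7 : 4 * CC C0 * a ^ 2 * J * E1 = E1 * (4 * CC C0 * a ^ 2 * J) := by ring
  rw [h7]
  linarith

/-- both inequalities, growth of `f` and of its gradient at most polynomial -/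
theorem avg_clause [IsProbabilityMeasure μ] {a C0 : ℝ} (ha : 0 < a) (hC0 : 0 < C0)
    (hK : H607.KLS C0) (hlc : HasLogConcaveDensity μ) (hsub : LinearlySubgaussian μ a)
    (f : EuclideanSpace ℝ (Fin n) → ℝ) (hf : ContDiff ℝ ∞ f) (hc : ConcaveOn ℝ univ f)
    (A : ℝ) (N : ℕ) (hgr : ∀ x, |f x| ≤ A * (1 + ‖x‖) ^ N)
    (hgr' : ∀ x, ‖gradient f x‖ ≤ A * (1 + ‖x‖) ^ N) :
    ∫ x, exp (f x - ∫ y, f y ∂μ) ∂μ ≤ exp (CC C0 * a ^ 2 * ∫ x, ‖gradient f x‖ ^ 2 ∂μ) ∧
    Entropy μ (fun x => exp (f x))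
      ≤ 4 * CC C0 * a ^ 2 * (∫ x, ‖gradient f x‖ ^ 2 ∂μ) * ∫ x, exp (f x) ∂μ :=
  ⟨(avg_exp ha hC0 hK hlc hsub hf hc (polyGr_of hf hgr hgr')).2,
    (avg_ent ha hC0 hK hlc hsub hf hc (polyGr_of hf hgr hgr')).2.2⟩

end Vale.Agent.P245.H23
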