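import Vale.Agent.P245.H23.TopFin
import Vale.Agent.P245.H847.Quasi

/-!
P245: the clause for functions whose high superlevel sets are convex (helper23).
-/

open MeasureTheory
open scoped ContDiff

namespace Vale.Agent.P245.H23

/-- the inequality of Q1, with a factor `1 + log R`, when only the superlevel sets above
`√(R ∫ f²)` are convex -/
theorem clause : ∃ c : ℝ, 0 < c ∧ ∀ (n : ℕ) (μ : Measure (EuclideanSpace ℝ (Fin n)))
    [IsProbabilityMeasure μ] (a C0 P : ℝ), 0 < a → 0 < C0 → H607.KLS C0 →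
    HasLogConcaveDensity μ → LinearlySubgaussian μ a → 0 ≤ P →
    (∀ f : EuclideanSpace ℝ (Fin n) → ℝ, ContDiff ℝ ∞ f → HasCompactSupport f →
      (∫ x, f x ^ 2 ∂μ) - (∫ x, f x ∂μ) ^ 2 ≤ P * ∫ x, ‖gradient f x‖ ^ 2 ∂μ) →
    ∀ R : ℝ, 1 ≤ R → ∀ f : EuclideanSpace ℝ (Fin n) → ℝ, ContDiff ℝ ∞ f → HasCompactSupport f →
    (∀ t : ℝ, 0 < t → R * ∫ y, f y ^ 2 ∂μ ≤ t ^ 2 →
      Convex ℝ {x | t ≤ f x} ∧ Convex ℝ {x | f x ≤ -t}) →
    Entropy μ (fun x => f x ^ 2) ≤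
      c * (1 + Real.log R) * (P + (8 * C0 + 26) * a ^ 2) * ∫ x, ‖gradient f x‖ ^ 2 ∂μ := by
  obtain ⟨c, hc, h⟩ := top_convex
  refine ⟨163901 * c, by positivity, ?_⟩
  intro n μ _ a C0 P ha hC0 hK hlc hsub hP0 hP R hR f hf hfc hconv
  have hq : 0 ≤ (8 * C0 + 26) * a ^ 2 := by positivity
  have h1 := h n μ P (60 * P + 163840 * ((8 * C0 + 26) * a ^ 2)) hP0 (by positivity) hP
    (fun g hg hgc hg0 hgq => H847.lsi_quasi ha hC0 hK hlc hsub hP0 hP hg hgc hg0 hgq) R hR f hf hfc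
    hconv
  refine h1.trans (mul_le_mul_of_nonneg_right ?_ (integral_nonneg fun x => by positivity))
  have hl := Real.log_nonneg hR
  have hlP : 0 ≤ Real.log R * P := by positivity
  have hlq : 0 ≤ Real.log R * ((8 * C0 + 26) * a ^ 2) := by positivity
  have e : 163901 * c * (1 + Real.log R) * (P + (8 * C0 + 26) * a ^ 2) =
      c * (163901 * ((1 + Real.log R) * (P + (8 * C0 + 26) * a ^ 2))) := by ring
  rw [e]
  apply mul_le_mul_of_nonneg_left _ hc.le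
  nlinarith

end Vale.Agent.P245.H23
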