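import Vale.Agent.P245.H339.Cor

/-!
P245: functions whose high superlevel sets are convex (helper23): interpolation between bounded functions
and quasi-concave functions.
-/

open MeasureTheory Set Filter Topology
open scoped ENNReal ContDiff

namespace Vale.Agent.P245.H23

variable {n : ℕ}

/-- `χ x = x S(x)`, `S` the smooth transition -/
noncomputable def chi (x : ℝ) : ℝ := x * Real.smoothTransition x

theorem chi_smooth : ContDiff ℝ ∞ chi :=
  contDiff_id.mul Real.smoothTransition.contDiff

theorem chi_nonpos {x : ℝ} (hx : x ≤ 0) : chi x = 0 := by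
  unfold chi; rw [Real.smoothTransition.zero_of_nonpos hx, mul_zero]

theorem chi_one {x : ℝ} (hx : 1 ≤ x) : chi x = x := by
  unfold chi; rw [Real.smoothTransition.one_of_one_le hx, mul_one]

theorem chi_nonneg (x : ℝ) : 0 ≤ chi x := by
  rcases le_total x 0 with h | h
  · rw [chi_nonpos h]
  · exact mul_nonneg h (Real.smoothTransition.nonneg x)

theorem chi_pos {x : ℝ} (hx : 0 < chi x) : 0 < x := by
  by_contra h
  rw [chi_nonpos (not_lt.1 h)] at hx
  exact lt_irrefl _ hx

theorem chi_le {x : ℝ} (hx : 0 ≤ x) : chi x ≤ x := by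
  have := mul_le_mul_of_nonneg_left (Real.smoothTransition.le_one x) hx
  unfold chi; linarith

theorem chi_mono {x y : ℝ} (hx : 0 ≤ x) (hxy : x ≤ y) : chi x ≤ chi y := by
  unfold chi
  exact mul_le_mul hxy (Real.smoothTransition.monotone hxy) (Real.smoothTransition.nonneg x)
    (hx.trans hxy)

theorem chi_deriv_bdd : ∃ B : ℝ, 1 ≤ B ∧ ∀ x, |deriv chi x| ≤ B := by
  have hc : Continuous (deriv chi) := chi_smooth.continuous_deriv (by simp)
  obtain ⟨B, hB⟩ := (isCompact_Icc (a := (0 : ℝ)) (b := 1)).exists_bound_of_continuousOn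
    (f := deriv chi) hc.continuousOn
  refine ⟨max B 1, le_max_right _ _, fun x => ?_⟩
  rcases lt_or_ge x 0 with h | h
  · have e : chi =ᶠ[𝓝 x] fun _ => 0 := by
      filter_upwards [Iio_mem_nhds h] with y hy
      exact chi_nonpos (le_of_lt hy)
    rw [e.deriv_eq]
    simp
  · rcases le_or_gt x 1 with h1 | h1
    · exact (hB x ⟨h, h1⟩).trans (le_max_left _ _)
    · have e : chi =ᶠ[𝓝 x] fun y => y := by
        filter_upwards [Ioi_mem_nhds h1] with y hy
        exact chi_one (le_of_lt hy)
      rw [e.deriv_eq]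
      simp

/-- the truncation `T χ((u - T)/T)` -/
noncomputable def Th (T u : ℝ) : ℝ := T * chi ((u - T) / T)

theorem half {f : EuclideanSpace ℝ (Fin n) → ℝ} (hf : ContDiff ℝ ∞ f) (hfc : HasCompactSupport f)
    {T : ℝ} (hT : 0 < T) (hconv : ∀ t, T ≤ t → Convex ℝ {x | t ≤ f x}) {B : ℝ}
    (hB : ∀ x, |deriv chi x| ≤ B) :
    ContDiff ℝ ∞ (fun x => Th T (f x)) ∧ HasCompactSupport (fun x => Th T (f x)) ∧
    (∀ x, 0 ≤ Th T (f x)) ∧ QuasiconcaveOn ℝ univ (fun x => Th T (f x)) ∧
    (∀ x, ‖gradient (fun x => Th T (f x)) x‖ ^ 2 ≤ B ^ 2 * ‖gradient f x‖ ^ 2) ∧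
    (∀ x, Th T (f x) ≤ max (f x - T) 0) ∧ ∀ x, 2 * T ≤ f x → Th T (f x) = f x - T := by
  have hB0 : 0 ≤ B := (abs_nonneg _).trans (hB 0)
  have hTh : ContDiff ℝ ∞ (Th T) := by
    unfold Th
    exact contDiff_const.mul (chi_smooth.comp ((contDiff_id.sub contDiff_const).div_const _))
  have hTh0 : Th T 0 = 0 := by
    unfold Th
    rw [chi_nonpos, mul_zero]
    rw [zero_sub, neg_div, div_self hT.ne']
    norm_num
  refine ⟨hTh.comp hf, hfc.comp_left hTh0, fun x => mul_nonneg hT.le (chi_nonneg _), ?_, ?_, ?_, ?_⟩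
  · intro r
    rcases le_or_gt r 0 with hr | hr
    · intro x hx y hy s t hs ht hst
      exact ⟨mem_univ _, hr.trans (mul_nonneg hT.le (chi_nonneg _))⟩
    · intro x hx y hy s t hs ht hst
      obtain ⟨_, hx⟩ := hx
      obtain ⟨_, hy⟩ := hy
      refine ⟨mem_univ _, ?_⟩
      have posx : ∀ z, r ≤ Th T (f z) → T ≤ f z := by
        intro z hz
        have h1 : 0 < T * chi ((f z - T) / T) := lt_of_lt_of_le hr hz
        have h2 : 0 < chi ((f z - T) / T) := (mul_pos_iff_of_pos_left hT).1 h1
        have h3 := chi_pos h2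
        have h4 : 0 < f z - T := by
          by_contra hcon
          have := div_nonpos_of_nonpos_of_nonneg (not_lt.1 hcon) hT.le
          linarith
        linarith
      have hTx := posx x hx
      have hTy := posx y hy
      set w := min (f x) (f y) with hw
      have hTw : T ≤ w := le_min hTx hTy
      have hz : w ≤ f (s • x + t • y) :=
        hconv w hTw (min_le_left _ _ : w ≤ f x) (min_le_right _ _ : w ≤ f y) hs ht hst
      have hrw : r ≤ Th T w := by
        rcases min_choice (f x) (f y) with h | h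
        · rw [hw, h]; exact hx
        · rw [hw, h]; exact hy
      refine hrw.trans ?_
      change T * chi ((w - T) / T) ≤ T * chi ((f (s • x + t • y) - T) / T)
      apply mul_le_mul_of_nonneg_left _ hT.le
      apply chi_mono (div_nonneg (by linarith) hT.le)
      exact div_le_div_of_nonneg_right (by linarith) hT.le
  · intro x
    have hd : HasFDerivAt f (fderiv ℝ f x) x := (hf.differentiable (by simp) x).hasFDerivAt
    have hdT : HasDerivAt (Th T) (deriv (Th T) (f x)) (f x) :=
      (hTh.differentiable (by simp) (f x)).hasDerivAt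
    have h1 := hdT.comp_hasFDerivAt x hd
    have h2 : deriv (Th T) (f x) = deriv chi ((f x - T) / T) := by
      have h3 : HasDerivAt (fun u : ℝ => (u - T) / T) (1 / T) (f x) :=
        ((hasDerivAt_id (f x)).sub_const T).div_const T
      have h4 : HasDerivAt chi (deriv chi ((f x - T) / T)) ((f x - T) / T) :=
        (chi_smooth.differentiable (by simp) _).hasDerivAt
      have h5 := (h4.comp (f x) h3).const_mul T
      have h6 : HasDerivAt (Th T) (T * (deriv chi ((f x - T) / T) * (1 / T))) (f x) := h5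
      rw [h6.deriv]
      field_simp
    have h3 : fderiv ℝ (fun x => Th T (f x)) x = deriv (Th T) (f x) • fderiv ℝ f x := h1.fderiv
    have e1 : ‖gradient (fun x => Th T (f x)) x‖ = ‖fderiv ℝ (fun x => Th T (f x)) x‖ := by
      unfold gradient; simp
    have e2 : ‖gradient f x‖ = ‖fderiv ℝ f x‖ := by
      unfold gradient; simp
    rw [e1, e2, h3, norm_smul, mul_pow, Real.norm_eq_abs, h2]
    apply mul_le_mul_of_nonneg_right _ (sq_nonneg _)
    exact pow_le_pow_left₀ (abs_nonneg _) (hB _) 2
  · intro x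
    rcases le_total (f x - T) 0 with h | h
    · rw [max_eq_right h]
      unfold Th
      rw [chi_nonpos (div_nonpos_of_nonpos_of_nonneg h hT.le), mul_zero]
    · rw [max_eq_left h]
      unfold Th
      have := mul_le_mul_of_nonneg_left (chi_le (div_nonneg h hT.le)) hT.le
      rwa [mul_div_cancel₀ _ hT.ne'] at this
  · intro x hx
    unfold Th
    rw [chi_one, mul_div_cancel₀ _ hT.ne']
    rw [le_div_iff₀ hT]; linarith

theorem psi_nonneg {u c : ℝ} (hu : 0 ≤ u) (hc : 0 < c) :
    0 ≤ u * Real.log u - u * Real.log c - u + c := by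
  rcases hu.eq_or_lt with h | h
  · rw [← h]; simp; exact hc.le
  · have h1 := Real.log_le_sub_one_of_pos (div_pos hc h)
    rw [Real.log_div hc.ne' h.ne'] at h1
    have h2 := mul_le_mul_of_nonneg_left h1 h.le
    have h3 : u * (c / u - 1) = c - u := by field_simp
    rw [h3] at h2
    linarith

/-- the pointwise inequality -/
theorem pointwise {m c T v g : ℝ} (hm : 0 < m) (hc : 0 < c) (hcm : c ≤ 2 * m) (hT : √m ≤ T)
    (hv : 0 ≤ v) (hg : 4 * T ≤ v → g = v - T) :
    v ^ 2 * Real.log (v ^ 2) - v ^ 2 * Real.log m - v ^ 2 + m ≤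
      8 * (1 + Real.log (4 * T / √m)) * (v - √m) ^ 2 +
        2 * (g ^ 2 * Real.log (g ^ 2) - g ^ 2 * Real.log c - g ^ 2 + c + 3 * g ^ 2) := by
  have hs : 0 < √m := Real.sqrt_pos.2 hm
  have hT0 : 0 < T := lt_of_lt_of_le hs hT
  have hsq : √m ^ 2 = m := Real.sq_sqrt hm.le
  have hH : 0 ≤ g ^ 2 * Real.log (g ^ 2) - g ^ 2 * Real.log c - g ^ 2 + c :=
    psi_nonneg (sq_nonneg g) hc
  have hlog : 0 ≤ Real.log (4 * T / √m) := by
    apply Real.log_nonneg
    rw [le_div_iff₀ hs]; linarith
  rcases le_or_gt v (4 * T) with h | h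
  · have h1 := C339.phi_scaled hv hs (by linarith : √m ≤ 4 * T) h
    rw [hsq] at h1
    have : 0 ≤ 3 * g ^ 2 := by positivity
    linarith
  · have hgv := hg h.le
    have hgp : 0 < g := by rw [hgv]; linarith
    have hvg : v ^ 2 ≤ 2 * g ^ 2 := by
      have h1 : v ≤ 4 / 3 * g := by rw [hgv]; linarith
      nlinarith
    have hvp : 0 < v := by linarith
    have hv2 : 0 < v ^ 2 := by positivity
    have hg2 : 0 < g ^ 2 := by positivity
    have hmv : m ≤ v ^ 2 := by
      rw [← hsq]
      apply pow_le_pow_left₀ hs.le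
      linarith
    have l1 : Real.log (v ^ 2) ≤ Real.log (g ^ 2) + Real.log 2 := by
      rw [← Real.log_mul hg2.ne' (by norm_num)]
      exact Real.log_le_log hv2 (by linarith)
    have l2 : Real.log c ≤ Real.log m + Real.log 2 := by
      rw [← Real.log_mul hm.ne' (by norm_num)]
      exact Real.log_le_log hc (by linarith)
    have l3 : Real.log m ≤ Real.log (v ^ 2) := Real.log_le_log hm hmv
    have l4 := Real.log_two_lt_d9
    have h5 : 0 ≤ 8 * (1 + Real.log (4 * T / √m)) * (v - √m) ^ 2 := by positivity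
    have h6 : v ^ 2 * (Real.log (v ^ 2) - Real.log m) ≤
        2 * g ^ 2 * (Real.log (v ^ 2) - Real.log m) :=
      mul_le_mul_of_nonneg_right hvg (by linarith)
    have h7 : 2 * g ^ 2 * (Real.log (v ^ 2) - Real.log m) ≤
        2 * g ^ 2 * (Real.log (g ^ 2) - Real.log c + 2) :=
      mul_le_mul_of_nonneg_left (by linarith) (by positivity)
    nlinarith

end Vale.Agent.P245.H23
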